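import Vale.Agent.P207.N4.Dim
import Vale.Agent.P207.N4.Spec

/-!
# P207, line N3, package P1g: the horospherical metric of the leaves

`Metr L` is the geometric input from which the tensor `Tens L` is constructed. `U x` is the second
fundamental form of the horosphere (the unstable solution of the Riccati equation) in the frame
`x`, `K x` the Jacobi operator `R(·, v) v` in the frame `x`, and `I x u` is the inverse metric of
the horosphere through the foot point of `x` in the chart `e x` (up to a constant factor).
-/

open Set Filter Topology Metric MeasureTheory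
open scoped ContDiff

noncomputable section

namespace Vale.Agent.P207.N4

open Vale.Agent.P207.N3

variable [Dim]

variable {Γ X B : Type} [Group Γ] [MetricSpace X] [ProperSpace X] [MulAction Γ X]
  [IsIsometricSMul Γ X] [TopologicalSpace B] [CompactSpace B] [T2Space B] [MulAction Γ B]
  [ContinuousConstSMul Γ B]

/-- The horospherical metric. -/
structure Metr (L : Leaf Γ X B) where
  /-- the unstable solution of the Riccati equation, in the frame `x` -/
  U : X → E2 →L[ℝ] E2
  U_cont : Continuous U
  U_symm : ∀ x v w, inner ℝ (U x v) w = inner ℝ v (U x w)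
  U_pos : ∀ x v, v ≠ 0 → 0 < inner ℝ (U x v) v
  U_smul : ∀ (g : Γ) x, U (g • x) = U x
  U_rot : ∀ a x v, U (L.rot a x) v = a.symm (U x (a v))
  /-- the Jacobi operator, in the frame `x` -/
  K : X → E2 →L[ℝ] E2
  K_flip : ∀ x, K (L.flip x) = K x
  riccati : ∀ x t, HasDerivAt (fun s => U (L.φ s x))
    (-(U (L.φ t x) ∘L U (L.φ t x)) - K (L.φ t x)) t
  /-- the derivative of the transition map at `0` is the inverse of the unstable Jacobi tensor -/
  jac : ∀ x t, HasDerivAt (fun s => fderiv ℝ (L.τ (L.φ s x) x) 0)
    (-(fderiv ℝ (L.τ (L.φ t x) x) 0 ∘L U (L.φ t x))) t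
  /-- the inverse metric of the horosphere through the foot point of `x`, in the chart `e x` -/
  I : X → E2 → E2 →L[ℝ] E2
  I_smooth : ∀ x, ContDiffOn ℝ ∞ (I x) (ball 0 3)
  I_cont : ∀ k : ℕ, ContinuousOn (fun p : X × E2 => iteratedFDeriv ℝ k (I p.1) p.2)
    (univ ×ˢ ball 0 3)
  I_eq : ∀ x z, L.em z = L.em x → L.lv z = L.lv x → ∀ u ∈ ball (0 : E2) 3, L.e x u = L.ep z →
    I x u = fderiv ℝ (L.τ z x) 0 ∘L ContinuousLinearMap.adjoint (fderiv ℝ (L.τ z x) 0)

end Vale.Agent.P207.N4
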