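import Vale.Agent.P207.N4.Dim
import Vale.Agent.P207.N4.H266.TensF

/-!
# P207, line N3, package P1g: from the horospherical metric to the tensor of the stable subspaces
-/

open Set Filter Topology Metric MeasureTheory
open scoped ContDiff

noncomputable section

namespace Vale.Agent.P207.N4.Ten

open Vale.Agent.P207.N3 Vale.Agent.P207.N3.Ten

variable [Dim]

variable {Γ X B : Type} [Group Γ] [MetricSpace X] [ProperSpace X] [MulAction Γ X]
  [IsIsometricSMul Γ X] [TopologicalSpace B] [CompactSpace B] [T2Space B] [MulAction Γ B]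
  [ContinuousConstSMul Γ B] {L : Leaf Γ X B} (M : Metr L) {x y z : X} {u w : E2}

/-- the tensor of the stable subspaces, relative to the vertical spaces of the horosphere -/
def NN (x : X) (u : E2) : E2 →L[ℝ] E2 :=
  cj (fderiv ℝ (L.τ (pt L x u) x) 0) (Si M (pt L x u))

theorem NN_eq (h : IsPt L x u z) (hu : u ∈ ball (0 : E2) 3) :
    NN M x u = cj (fderiv ℝ (L.τ z x) 0) (Si M z) := by
  have := cj_indep (M := Si M) (fun a x v => Si_rot M a x v) h (pt_spec x (ball_sub hu)) hu 0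
  simp only [L.φ_zero] at this
  exact this

theorem cj_symm (A C : E2 →L[ℝ] E2) (hC : ∀ v w, inner ℝ (C v) w = inner ℝ v (C w)) (v w : E2) :
    inner ℝ (cj A C v) w = inner ℝ v (cj A C w) := by
  show inner ℝ (A (C (ContinuousLinearMap.adjoint A v))) w
    = inner ℝ v (A (C (ContinuousLinearMap.adjoint A w)))
  rw [← ContinuousLinearMap.adjoint_inner_right, hC, ContinuousLinearMap.adjoint_inner_left]

theorem NN_symm (x : X) (u v w : E2) : inner ℝ (NN M x u v) w = inner ℝ v (NN M x u w) :=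
  cj_symm _ _ (Si_symm M _) v w

theorem isPt_smul (g : Γ) (h : IsPt L x u z) (hu : u ∈ closedBall (0 : E2) 3) :
    IsPt L (g • x) u (g • z) := by
  refine ⟨by rw [L.em_smul, L.em_smul, h.em], by rw [ep_smul, L.e_smul g x u hu, h.ep], ?_⟩
  have := L.lv_smul g z x h.em
  rw [h.lv, sub_self, sub_eq_zero] at this
  exact this

theorem NN_smul (g : Γ) (x : X) (hu : u ∈ ball (0 : E2) 3) : NN M (g • x) u = NN M x u := by
  have h := pt_spec (L := L) x (ball_sub hu)
  rw [NN_eq M (isPt_smul g h (ball_sub hu)) hu, Si_smul, fderiv_tau_smul g (h.dm hu)]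
  rfl

theorem NN_rot (a : O2) (x : X) (hu : u ∈ ball (0 : E2) 3) (v : E2) :
    NN M (L.rot a x) u v = a.symm (NN M x (a u) (a v)) := by
  have hau := norm_ball a hu
  have h := pt_spec (L := L) x (ball_sub hau)
  have h' : IsPt L (L.rot a x) u (pt L x (a u)) := by
    refine ⟨by rw [L.em_rot, h.em], by rw [L.e_rot a x u (ball_sub hu), h.ep], ?_⟩
    rw [L.lv_rot, h.lv]
  rw [NN_eq M h' hu, fderiv_tau_rot_right h.em a (h.dm hau), cj_comp]
  have hadj : ContinuousLinearMap.adjoint (a.symm.toContinuousLinearEquiv : E2 →L[ℝ] E2)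
      = (a.toContinuousLinearEquiv : E2 →L[ℝ] E2) := by
    rw [adjoint_iso, LinearIsometryEquiv.symm_symm]
  show a.symm (cj (fderiv ℝ (L.τ (pt L x (a u)) x) 0) (Si M (pt L x (a u)))
    (ContinuousLinearMap.adjoint (a.symm.toContinuousLinearEquiv : E2 →L[ℝ] E2) v)) = _
  rw [hadj]
  rfl

/-! ### continuity of `NN` -/

variable (L) in
/-- a continuous local choice of the frame over a point -/
def sec2 (z₀ : X) (p : X × E2) : X :=
  L.φ (L.lv p.1 - L.lv (L.flip (L.hol (L.e p.1 p.2) (L.flip (L.hol (L.em p.1) z₀)))))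
    (L.flip (L.hol (L.e p.1 p.2) (L.flip (L.hol (L.em p.1) z₀))))

theorem ep_flip' (x : X) : L.ep (L.flip x) = L.em x := by rw [L.ep_flip, L.flip_flip]

theorem isPt_sec2 {z₀ : X} (h : L.em x ≠ L.ep z₀) (hu : u ∈ closedBall (0 : E2) 3) :
    IsPt L x u (sec2 L z₀ (x, u)) := by
  have h1 : L.ep (L.flip (L.hol (L.em x) z₀)) = L.em x := by rw [ep_flip', L.hol_em _ _ h]
  have h2 : L.e x u ≠ L.ep (L.flip (L.hol (L.em x) z₀)) := by
    rw [h1]
    exact L.e_ne x u hu
  refine ⟨?_, ?_, ?_⟩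
  · rw [sec2, L.em_φ]
    simp only
    rw [← L.ep_flip, L.hol_ep _ _ h2, h1]
  · rw [sec2, ep_φ, ep_flip', L.hol_em _ _ h2]
  · rw [sec2, L.lv_φ]
    ring

theorem sec2_cont (z₀ : X) : ContinuousOn (sec2 L z₀)
    {p : X × E2 | L.em p.1 ≠ L.ep z₀ ∧ p.2 ∈ ball (0 : E2) 3} := by
  set W := {p : X × E2 | L.em p.1 ≠ L.ep z₀ ∧ p.2 ∈ ball (0 : E2) 3} with hW
  have h1 : ContinuousOn (fun p : X × E2 => L.hol (L.em p.1) z₀) W :=
    L.hol_cont.comp (f := fun p : X × E2 => ((L.em p.1, z₀) : B × X))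
      ((L.em_cont.comp continuous_fst).prodMk continuous_const).continuousOn fun p hp => hp.1
  have h2 : ContinuousOn (fun p : X × E2 => L.flip (L.hol (L.em p.1) z₀)) W :=
    L.flip_cont.comp_continuousOn h1
  have h3 : ContinuousOn (fun p : X × E2 => L.e p.1 p.2) W :=
    L.e_cont.mono fun p hp => ⟨mem_univ _, ball_sub hp.2⟩
  have h4 : ContinuousOn (fun p : X × E2 =>
      L.hol (L.e p.1 p.2) (L.flip (L.hol (L.em p.1) z₀))) W := by
    refine L.hol_cont.comp (f := fun p : X × E2 =>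
      ((L.e p.1 p.2, L.flip (L.hol (L.em p.1) z₀)) : B × X)) (h3.prodMk h2) fun p hp => ?_
    show L.e p.1 p.2 ≠ L.ep (L.flip (L.hol (L.em p.1) z₀))
    rw [ep_flip', L.hol_em _ _ hp.1]
    exact L.e_ne p.1 p.2 (ball_sub hp.2)
  have h5 : ContinuousOn (fun p : X × E2 =>
      L.flip (L.hol (L.e p.1 p.2) (L.flip (L.hol (L.em p.1) z₀)))) W :=
    L.flip_cont.comp_continuousOn h4
  have h6 : ContinuousOn (fun p : X × E2 => L.lv p.1 -
      L.lv (L.flip (L.hol (L.e p.1 p.2) (L.flip (L.hol (L.em p.1) z₀))))) W :=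
    (L.lv_cont.comp continuous_fst).continuousOn.sub (L.lv_cont.comp_continuousOn h5)
  exact L.φ_cont.comp_continuousOn (h6.prodMk h5)

theorem NN_cont : ContinuousOn (fun p : X × E2 => NN M p.1 p.2) (univ ×ˢ ball (0 : E2) 3) := by
  rintro ⟨x₀, u₀⟩ ⟨-, hu₀⟩
  simp only at hu₀
  obtain ⟨z₀, hz₀⟩ := exists_pt (L := L) x₀ (ball_sub hu₀)
  set W := {p : X × E2 | L.em p.1 ≠ L.ep z₀ ∧ p.2 ∈ ball (0 : E2) 3} with hW
  have hWo : IsOpen W := by
    have h1 : IsOpen {p : X × E2 | L.em p.1 ≠ L.ep z₀} :=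
      (isOpen_ne_em L z₀).preimage continuous_fst
    exact h1.inter (isOpen_ball.preimage continuous_snd)
  have hmem : ((x₀, u₀) : X × E2) ∈ W := by
    refine ⟨?_, hu₀⟩
    simp only
    rw [hz₀.ep]
    exact (L.e_ne x₀ u₀ (ball_sub hu₀)).symm
  have hs := sec2_cont (L := L) z₀
  rw [← hW] at hs
  have hP : ∀ p ∈ W, IsPt L p.1 p.2 (sec2 L z₀ p) := fun p hp =>
    isPt_sec2 hp.1 (ball_sub hp.2)
  -- the derivative of the transition map
  have hD : ContinuousOn (fun p : X × E2 => fderiv ℝ (L.τ (sec2 L z₀ p) p.1) 0) W := by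
    rw [continuousOn_iff_continuous_domRestrict]
    let c : W → Pr L × E2 := fun p => (⟨(sec2 L z₀ p.1, p.1.1), (hP p.1 p.2).em⟩, 0)
    have hc : Continuous c := by
      refine Continuous.prodMk (Continuous.subtype_mk ?_ _) continuous_const
      exact (continuousOn_iff_continuous_domRestrict.1 hs).prodMk
        (continuous_fst.comp continuous_subtype_val)
    exact ((JC_tau L).fderiv.continuousOn).comp_continuous hc fun p => (hP p.1 p.2).dm p.2.2
  have hC : ContinuousOn (fun p : X × E2 => cj (fderiv ℝ (L.τ (sec2 L z₀ p) p.1) 0)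
      (Si M (sec2 L z₀ p))) W := by
    have h2 : ContinuousOn (fun p : X × E2 =>
        ContinuousLinearMap.adjoint (fderiv ℝ (L.τ (sec2 L z₀ p) p.1) 0)) W :=
      adjL.continuous.comp_continuousOn hD
    exact hD.clm_comp (((Si_cont M).comp_continuousOn hs).clm_comp h2)
  have hN : ContinuousOn (fun p : X × E2 => NN M p.1 p.2) W :=
    hC.congr fun p hp => NN_eq M (hP p hp) hp.2
  exact (hN.continuousAt (hWo.mem_nhds hmem)).continuousWithinAt

/-! ### the remainder -/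

variable (L) in
/-- the integral of the inverse metrics of the horospheres -/
def Rr (q : X × ℝ) (v : E2) : E2 →L[ℝ] E2 :=
  q.2 • ∫ σ in (0 : ℝ)..1, hor L (q.1, q.2 * σ) v

variable (L) in
theorem Rr_eq (y : X) (T : ℝ) (v : E2) : Rr L (y, T) v = ∫ s in (0 : ℝ)..T, hor L (y, s) v := by
  rw [Rr]
  simp only
  have := intervalIntegral.smul_integral_comp_mul_left (a := 0) (b := 1)
    (fun s => hor L (y, s) v) T
  rw [this]
  simp

include M in
theorem JC_Rr : JC (Rr L) (univ ×ˢ ball (0 : E2) 3) := by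
  have h1 : JC (fun (q : (X × ℝ) × ℝ) v => hor L (q.1.1, q.1.2 * q.2) v)
      {p : ((X × ℝ) × ℝ) × E2 | ((p.1.1.1, p.1.1.2 * p.1.2), p.2) ∈
        (univ : Set (X × ℝ)) ×ˢ ball (0 : E2) 3} :=
    (JC_hor M).pullback (c := fun q : (X × ℝ) × ℝ => ((q.1.1, q.1.2 * q.2) : X × ℝ))
      (by fun_prop)
  have h2 := JC.integral (a := 0) (b := 1) (T := {p : ((X × ℝ) × ℝ) × E2 |
    ((p.1.1.1, p.1.1.2 * p.1.2), p.2) ∈ (univ : Set (X × ℝ)) ×ˢ ball (0 : E2) 3})
    (f := fun (q : (X × ℝ) × ℝ) v => hor L (q.1.1, q.1.2 * q.2) v) h1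
  have ho : IsOpen ((univ : Set (X × ℝ)) ×ˢ ball (0 : E2) 3) := isOpen_univ.prod isOpen_ball
  have h3 : JC (fun (z : X × ℝ) v => ∫ σ in (0 : ℝ)..1, hor L (z.1, z.2 * σ) v)
      (univ ×ˢ ball (0 : E2) 3) := h2.mono ho fun p hp t _ => ⟨mem_univ _, hp.2⟩
  have h4 : JC (fun (z : X × ℝ) (_ : E2) => z.2) (univ ×ˢ ball (0 : E2) 3) :=
    JC.param' ho continuous_snd
  exact h4.smul h3

variable (L) in
/-- the remainder in the transformation law -/
def RR (x y : X) (u : E2) : E2 →L[ℝ] E2 := Rr L (y, L.lv x - L.lv y) (L.τ x y u)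

include M in
theorem JC_RR : JC (fun (q : Pr L) u => RR L q.1.1 q.1.2 u) (DM L) := by
  have hc : Continuous fun q : Pr L => ((q.1.2, L.lv q.1.1 - L.lv q.1.2) : X × ℝ) := by
    have h1 := Pr_cont L
    have h2 := L.lv_cont
    fun_prop
  exact ((JC_Rr M).pullback hc).comp' (JC_tau L) fun p hp => ⟨mem_univ _, tau_mem hp⟩

/-- **the transformation law** -/
theorem NN_trans (hxy : L.em x = L.em y) (hu : u ∈ L.dm x y) :
    NN M y (L.τ x y u) = cj (fderiv ℝ (L.τ x y) u) (NN M x u) + RR L x y u := by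
  have h := pt_spec (L := L) x (ball_sub hu.1)
  have hN := NN_eq M h hu.1
  set z := pt L x u with hz
  set T := L.lv y - L.lv x with hT
  set v := L.τ x y u with hv
  have hvb : v ∈ ball (0 : E2) 3 := tau_mem hu
  have hev : L.e y v = L.e x u := e_tau hu
  have hζ : IsPt L y v (L.φ T z) :=
    ⟨by rw [L.em_φ, h.em, hxy], by rw [ep_φ, h.ep, hev], by rw [L.lv_φ, h.lv, hT]; ring⟩
  have hzy : (0 : E2) ∈ L.dm z y := dm_zero' hvb (by rw [hev, h.ep])
  have hemz : L.em z = L.em y := h.em.trans hxy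
  -- the chain rule
  have hchain : ∀ s, fderiv ℝ (L.τ (L.φ s z) y) 0 = fderiv ℝ (L.τ z y) 0 ∘L Mf L z s := by
    intro s
    have h0 : L.ep (L.φ s z) = L.ep z := ep_φ L s z
    have h1 : L.τ (L.φ s z) z 0 = 0 := tau_zero_of_ep h0
    rw [fderiv_tau_trans (x := L.φ s z) (y := z) (z := y) (L.em_φ s z) hemz
      (dm_zero_of_ep h0) (by rwa [h1]), h1]
    rfl
  have hD : fderiv ℝ (L.τ z y) 0 = fderiv ℝ (L.τ x y) u ∘L fderiv ℝ (L.τ z x) 0 :=
    fderiv_tau_zero h.em hxy hu.1 h.ep.symm hu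
  have hcont : Continuous fun s => cj (Mf L z s) (ContinuousLinearMap.id ℝ E2) := by
    have h1 := Mf_cont M z
    have h2 : Continuous fun s => ContinuousLinearMap.adjoint (Mf L z s) :=
      adjL.continuous.comp h1
    exact h1.clm_comp (continuous_const.clm_comp h2)
  rw [NN_eq M hζ hvb, hchain T, cj_comp, cj_int M z T, cj_sub,
    cj_integral _ (hcont.intervalIntegrable 0 T), hD, cj_comp, ← hN, sub_eq_add_neg]
  congr 1
  have h5 : ∀ s : ℝ, cj (fderiv ℝ (L.τ x y) u ∘L fderiv ℝ (L.τ z x) 0)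
      (cj (Mf L z s) (ContinuousLinearMap.id ℝ E2)) = hor L (y, s - T) v := by
    intro s
    rw [← hD, ← cj_comp, ← hchain s, hor_eq hζ hvb (s - T), ← L.φ_add]
    congr 3
    rw [sub_add_cancel]
  simp only [h5]
  rw [RR, ← hv, Rr_eq, intervalIntegral.integral_comp_sub_right (fun s => hor L (y, s) v) T]
  rw [zero_sub, sub_self, ← intervalIntegral.integral_symm, hT, neg_sub]

/-! ### invariance and uniform bounds -/

theorem hor_smul (g : Γ) (y : X) (s : ℝ) (hu : u ∈ ball (0 : E2) 3) :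
    hor L (g • y, s) u = hor L (y, s) u := by
  have h := pt_spec (L := L) y (ball_sub hu)
  rw [hor_eq (isPt_smul g h (ball_sub hu)) hu, hor_eq h hu, L.φ_smul,
    fderiv_tau_smul g (h.dm_φ hu s)]

theorem Rr_smul (g : Γ) (y : X) (T : ℝ) (hu : u ∈ ball (0 : E2) 3) :
    Rr L (g • y, T) u = Rr L (y, T) u := by
  rw [Rr, Rr]
  simp only [hor_smul g y _ hu]

include M in
theorem Rr_bound (k : ℕ) (T : ℝ) : ∃ C, ∀ x, ∀ t ∈ Icc 0 T, ∀ v ∈ closedBall (0 : E2) 1,
    ‖iteratedFDeriv ℝ k (Rr L (x, t)) v‖ ≤ C := by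
  obtain ⟨K, hK, hK'⟩ := L.cocompact
  have h1 : closedBall (0 : E2) 1 ⊆ ball 0 3 := closedBall_subset_ball (by norm_num)
  obtain ⟨C, hC⟩ := (JC_Rr M).bound ((hK.prod (isCompact_Icc (a := (0 : ℝ)) (b := T))).prod
    (isCompact_closedBall (0 : E2) 1)) (fun p hp => ⟨mem_univ _, h1 hp.2⟩) k
  refine ⟨C, fun x t ht v hv => ?_⟩
  obtain ⟨g, hg⟩ := hK' x
  have h2 : Rr L (x, t) =ᶠ[𝓝 v] Rr L (g • x, t) := by
    filter_upwards [isOpen_ball.mem_nhds (h1 hv)] with w hw using (Rr_smul g x t hw).symm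
  rw [(h2.iteratedFDeriv ℝ k).self_of_nhds]
  exact hC ((g • x, t), v) ⟨⟨hg, ht⟩, hv⟩

include M in
theorem RR_bound (k : ℕ) (T : ℝ) : ∃ C, ∀ x, ∀ t ∈ Icc L.t1 T, ∀ u ∈ ball (0 : E2) 3,
    ‖iteratedFDeriv ℝ k (RR L (L.φ t x) x) u‖ ≤ C := by
  choose C₁ hC₁ using fun i => Rr_bound (L := L) M i T
  choose C₂ hC₂ using fun i (hi : 1 ≤ i) => L.contract i hi
  set C₃ : ℝ := ∑ i ∈ Finset.range (k + 1), |C₁ i| with hC₃
  set D : ℝ := 1 + ∑ i ∈ Finset.range (k + 1), (if hi : 1 ≤ i then |C₂ i hi| else 0) with hD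
  have hD1 : 1 ≤ D := by
    rw [hD]
    refine le_add_of_nonneg_right (Finset.sum_nonneg fun i _ => ?_)
    split_ifs <;> simp
  refine ⟨(k.factorial : ℝ) * C₃ * D ^ k, fun x t ht u hu => ?_⟩
  have hsub : ∀ v ∈ ball (0 : E2) 3, L.τ (L.φ t x) x v ∈ ball (0 : E2) 1 ∧
      v ∈ L.dm (L.φ t x) x := by
    intro v hv
    obtain ⟨w, hw, hew⟩ := L.engulf x t ht.1 ⟨v, ball_sub hv, rfl⟩
    have hw3 : w ∈ ball (0 : E2) 3 := ball_subset_ball (by norm_num) hw
    refine ⟨?_, mem_dm hv hw3 hew⟩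
    rw [tau_eq (ball_sub hw3) hew]
    exact hw
  have hlv : L.lv (L.φ t x) - L.lv x = t := by rw [L.lv_φ]; ring
  have ht0 : 0 ≤ t := L.t1_pos.le.trans ht.1
  have hg : ContDiffOn ℝ ∞ (Rr L (x, t)) (ball (0 : E2) 3) :=
    ((JC_Rr M).smooth (x, t)).mono fun v hv => ⟨mem_univ _, hv⟩
  have hf : ContDiffOn ℝ ∞ (L.τ (L.φ t x) x) (ball (0 : E2) 3) :=
    (L.tau_smooth _ _ (L.em_φ t x)).mono fun v hv => (hsub v hv).2
  have hmaps : MapsTo (L.τ (L.φ t x) x) (ball (0 : E2) 3) (ball (0 : E2) 3) := fun v hv =>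
    ball_subset_ball (by norm_num) (hsub v hv).1
  have key := norm_iteratedFDerivWithin_comp_le (n := k) hg hf (by exact_mod_cast le_top)
    isOpen_ball.uniqueDiffOn isOpen_ball.uniqueDiffOn hmaps hu (C := C₃) (D := D)
    (fun i hi => by
      rw [iteratedFDerivWithin_of_isOpen i isOpen_ball (hmaps hu)]
      refine (hC₁ i x t ⟨ht0, ht.2⟩ _ (ball_subset_closedBall (hsub u hu).1)).trans ?_
      refine (le_abs_self _).trans ?_
      exact Finset.single_le_sum (f := fun i => |C₁ i|) (fun j _ => abs_nonneg _)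
        (Finset.mem_range.2 (by omega)))
    (fun i hi1 hi => by
      rw [iteratedFDerivWithin_of_isOpen i isOpen_ball hu]
      refine (hC₂ i hi1 x t ht.1 u hu).trans ?_
      have h1 : C₂ i hi1 * Real.exp (-L.χ * t) ≤ |C₂ i hi1| := by
        refine (mul_le_mul_of_nonneg_right (le_abs_self _) (Real.exp_pos _).le).trans ?_
        refine mul_le_of_le_one_right (abs_nonneg _) (Real.exp_le_one_iff.2 ?_)
        have := mul_nonneg L.χ_pos.le ht0
        linarith
      have h2 : |C₂ i hi1| ≤ D := by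
        have := Finset.single_le_sum (f := fun i => (if hi : 1 ≤ i then |C₂ i hi| else 0))
          (s := Finset.range (k + 1)) (fun j _ => by
            show 0 ≤ (if hi : 1 ≤ j then |C₂ j hi| else 0)
            split_ifs <;> simp) (Finset.mem_range.2 (by omega : i < k + 1))
        simp only [hi1, dif_pos] at this
        rw [hD]
        linarith
      exact h1.trans (h2.trans (le_self_pow₀ hD1 (by omega))))
  rw [iteratedFDerivWithin_of_isOpen k isOpen_ball hu] at key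
  have hfun : RR L (L.φ t x) x = Rr L (x, t) ∘ L.τ (L.φ t x) x := by
    funext v
    rw [RR, hlv]
    rfl
  rw [hfun]
  exact key

/-- **The tensor of the stable subspaces.** -/
def tens : Tens L where
  N := NN M
  N_symm := NN_symm M
  N_cont := NN_cont M
  N_smul g x u hu := NN_smul M g x hu
  N_rot a x u hu v := NN_rot M a x hu v
  R := RR L
  R_eq x y hxy u hu := NN_trans M hxy hu
  R_smooth x y hxy := (JC_RR M).smooth ⟨(x, y), hxy⟩
  R_cont k := by
    have h1 := (JC_RR M).cont k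
    rw [continuousOn_iff_continuous_domRestrict] at h1 ⊢
    let c : {p : (X × X) × E2 | L.em p.1.1 = L.em p.1.2 ∧ p.2 ∈ L.dm p.1.1 p.1.2} → DM L :=
      fun p => ⟨(⟨p.1.1, p.2.1⟩, p.1.2), p.2.2⟩
    have hc : Continuous c := by
      refine Continuous.subtype_mk (Continuous.prodMk (Continuous.subtype_mk ?_ _) ?_) _
      · exact continuous_fst.comp continuous_subtype_val
      · exact continuous_snd.comp continuous_subtype_val
    exact h1.comp hc
  R_bound := RR_bound M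

end Vale.Agent.P207.N4.Ten
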