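import Vale.Agent.P207.N4.Dim
import Vale.Agent.P207.N4.H722.GeoIn
import Vale.Agent.P207.N4.H266.TensG

/-!
# P207, line N3, package P12G (G1): the transition maps in the slices

`GeoIn.fderiv_tau`: the derivative of a transition map, `GeoIn.Cp = pr₂ ∘ (D(A x))⁻¹`, and
`hor_eq`: the inverse metric of the horospheres is `r₀² C G⁻¹ Cᵀ`.
-/

open Set Filter Topology Metric
open scoped ContDiff

noncomputable section

namespace Vale.Agent.P207.N4.H266

open Vale.Agent.P207.N3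

variable [Dim]

open Vale.Agent.P207.N4.H76 (pk tl e0 sg)
open Vale.Agent.P207.N4.H722 (GeoIn HessIn)

/-! ### tools -/

section Tools

variable {Z : Type} [TopologicalSpace Z] {E F G : Type} [NormedAddCommGroup E] [NormedSpace ℝ E]
  [NormedAddCommGroup F] [NormedSpace ℝ F] [NormedAddCommGroup G] [NormedSpace ℝ G]
  {S : Set (Z × E)}

theorem JC_inverse [CompleteSpace F] {A : Z → E → F →L[ℝ] G} (hA : JC A S)
    (h : ∀ p ∈ S, (A p.1 p.2).IsInvertible) : JC (fun z u => (A z u).inverse) S := by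
  have hU : IsOpen {A : F →L[ℝ] G | A.IsInvertible} := by
    have := ContinuousLinearEquiv.isOpen (𝕜 := ℝ) (E := F) (F := G)
    exact this
  refine hA.comp_contDiffOn (φ := ContinuousLinearMap.inverse) hU (fun A hA' => ?_) h
  obtain ⟨e, rfl⟩ := hA'
  exact (contDiffAt_map_inverse e).contDiffWithinAt

theorem isInvertible_of_bijective [FiniteDimensional ℝ F] {A : F →L[ℝ] G}
    (h : Function.Bijective A) : A.IsInvertible := by
  refine ⟨(LinearEquiv.ofBijective A.toLinearMap h).toContinuousLinearEquiv, ?_⟩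
  ext1 v
  rfl

theorem inverse_apply [FiniteDimensional ℝ F] {A : F →L[ℝ] G} (h : Function.Bijective A) (v : F) :
    A.inverse (A v) = v :=
  DFunLike.congr_fun (isInvertible_of_bijective h).inverse_comp_self v

theorem apply_inverse [FiniteDimensional ℝ F] {A : F →L[ℝ] G} (h : Function.Bijective A) (v : G) :
    A (A.inverse v) = v :=
  DFunLike.congr_fun (isInvertible_of_bijective h).self_comp_inverse v

end Tools

variable {Γ X B : Type} [Group Γ] [MetricSpace X] [ProperSpace X] [MulAction Γ X]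
  [IsIsometricSMul Γ X] [TopologicalSpace B] [CompactSpace B] [T2Space B] [MulAction Γ B]
  [ContinuousConstSMul Γ B]
variable {L : Leaf Γ X B} {V : Type} [NormedAddCommGroup V] [NormedSpace ℝ V]
  [FiniteDimensional ℝ V] (I : GeoIn L V)

theorem b_psi (ξ : B) (s : ℝ) (q : V) : I.b ξ (I.S.psi ξ s q) = I.b ξ q + s := by
  obtain ⟨x, h1, h2, -⟩ := I.exists_frame ξ q
  have h3 := I.b_lv (L.φ s x)
  have h4 := I.b_lv x
  rw [L.em_φ, I.ft_φ, h1, h2, L.lv_φ] at h3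
  rw [h1, h2] at h4
  rw [h3, h4]

theorem line_psi (ξ : B) (s : ℝ) (q : V) : I.S.line ξ (I.S.psi ξ s q) = I.S.line ξ q :=
  ((I.S.line_iff ξ q _).2 ⟨s, rfl⟩).symm

theorem mem_R3 {u : E2} (hu : u ∈ ball (0 : E2) 3) : u ∈ ball (0 : E2) I.S.R :=
  I.S.mem_R (ball_subset_closedBall hu)

theorem A_psi (x : X) (s : ℝ) {u : E2} (hu : u ∈ ball (0 : E2) I.S.R) :
    I.S.A x (s, u) = I.S.psi (L.em x) s (I.S.A x (0, u)) := by
  rw [I.S.A_psi x s u hu, I.em_eq]

theorem psi_A (x : X) (t s : ℝ) {u : E2} (hu : u ∈ ball (0 : E2) I.S.R) :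
    I.S.psi (L.em x) t (I.S.A x (s, u)) = I.S.A x (t + s, u) := by
  rw [← I.em_eq, I.S.psi_A x t s hu]

theorem line_A (x : X) (s : ℝ) {u : E2} (hu : u ∈ ball (0 : E2) 3) :
    I.S.line (L.em x) (I.S.A x (s, u)) = L.e x u := by
  rw [A_psi I x s (mem_R3 I hu), line_psi, ← I.e_eq x u (ball_subset_closedBall hu), H459.Slice.e,
    I.em_eq]

/-- the frame over a point of the slice -/
structure IsFr (x : X) (s : ℝ) (u : E2) (z : X) : Prop where
  em : L.em z = L.em x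
  ft : I.S.ft z = I.S.A x (s, u)
  ep : L.ep z = L.e x u

theorem exists_isFr (x : X) (s : ℝ) {u : E2} (hu : u ∈ ball (0 : E2) 3) : ∃ z, IsFr I x s u z := by
  obtain ⟨z, h1, h2, h3⟩ := I.exists_frame (L.em x) (I.S.A x (s, u))
  exact ⟨z, h1, h2, by rw [h3, line_A I x s hu]⟩

theorem fderiv_A_one (hinv : H459.InvThm) (x : X) (s : ℝ) {u : E2}
    (hu : u ∈ ball (0 : E2) I.S.R) :
    fderiv ℝ (I.S.A x) (s, u) (1, 0) = I.vel (L.em x) (I.S.A x (s, u)) := by
  have h1 : HasFDerivAt (I.S.A x) (fderiv ℝ (I.S.A x) (s, u)) (s, u) :=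
    (I.S.A_jc.differentiableAt (I.S.mem_S x s hu)).hasFDerivAt
  have h2 : HasDerivAt (fun t : ℝ => ((t, u) : ℝ × E2)) (1, 0) s :=
    (hasDerivAt_id s).prodMk (hasDerivAt_const s _)
  have h3 := h1.comp_hasDerivAt s (f := fun t : ℝ => ((t, u) : ℝ × E2)) h2
  have h4 := I.S.hasDerivAt_psi hinv (L.em x) s (I.S.A x (0, u))
  rw [← A_psi I x s hu] at h4
  refine h3.unique (h4.congr_of_eventuallyEq (Eventually.of_forall fun t => ?_))
  exact A_psi I x t hu

/-- the level of the point `A x (0, u)`, relative to `x` -/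
def bet (x : X) (u : E2) : ℝ := I.b (L.em x) (I.S.A x (0, u)) - L.lv x

theorem IsFr.lv {x z : X} {s : ℝ} {u : E2} (hu : u ∈ ball (0 : E2) I.S.R) (h : IsFr I x s u z) :
    L.lv z = L.lv x + bet I x u + s := by
  have h1 := I.b_lv z
  rw [h.em, h.ft, A_psi I x s hu, b_psi] at h1
  rw [← h1, bet]
  ring

/-- **the derivative of a transition map** -/
theorem fderiv_tau (hinv : H459.InvThm) {x z : X} {s : ℝ} {u : E2} (hu : u ∈ ball (0 : E2) 3)
    (h : IsFr I x s u z) (w : E2) :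
    ∃ c : ℝ, fderiv ℝ (I.S.A x) (s, u) (c, fderiv ℝ (L.τ z x) 0 w) =
      I.E z (pk 0 (I.r₀ • w)) := by
  have hR := mem_R3 I hu
  have he : I.S.e z 0 = I.S.e x u := by
    rw [I.S.e_zero, I.ep_eq, I.e_eq x u (ball_subset_closedBall hu), h.ep]
  have hem : I.S.em z = I.S.em x := by rw [I.em_eq, I.em_eq, h.em]
  obtain ⟨T, G, h1, h2, h3, h4⟩ := I.S.tau_local' hinv hem I.S.zero_mem hu he
  have hd : DifferentiableAt ℝ (G (z, x)) 0 := h1.differentiableAt h2
  have h5 := h4 _ h2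
  simp only at h5
  -- the value at `0`
  have h0 : G (z, x) 0 = (s, u) := by
    refine Prod.ext ?_ h3
    have e1 : I.S.A z (0, 0) = I.S.ft z := I.S.A_zero z
    have e2 := h5.2.2.1
    have e3 : G (z, x) 0 = ((G (z, x) 0).1, u) := Prod.ext rfl h3
    rw [e1, h.ft, e3, A_psi I x _ hR, A_psi I x s hR] at e2
    have e4 : I.S.psi (L.em x) ((G (z, x) 0).1 - s) (I.S.psi (L.em x) s (I.S.A x (0, u)))
        = I.S.psi (L.em x) s (I.S.A x (0, u)) := by
      rw [← I.S.psi_add, sub_add_cancel, e2]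
    exact sub_eq_zero.1 (I.S.psi_ne _ _ _ e4)
  -- the identity
  have hmem : ∀ᶠ u' in 𝓝 (0 : E2), ((z, x), u') ∈ T :=
    (isOpen_slice h1.isOpen (z, x)).mem_nhds h2
  have key : (fun u' => I.S.A x (G (z, x) u')) =ᶠ[𝓝 0] fun u' => I.S.A z (0, u') := by
    filter_upwards [hmem] with u' hu'
    exact (h4 _ hu').2.2.1
  have ktau : L.τ z x =ᶠ[𝓝 0] fun u' => (G (z, x) u').2 := by
    filter_upwards [hmem, isOpen_ball.mem_nhds Ten.mem_ball0] with u' hu' hu3
    obtain ⟨-, e1, -, e2⟩ := h4 _ hu'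
    refine Ten.tau_eq (ball_subset_closedBall e1) ?_
    rw [← I.e_eq x _ (ball_subset_closedBall e1), ← I.e_eq z _ (ball_subset_closedBall hu3)]
    exact (e2 hem).1.symm
  have hA : HasFDerivAt (I.S.A x) (fderiv ℝ (I.S.A x) (s, u)) (G (z, x) 0) := by
    rw [h0]
    exact (I.S.A_jc.differentiableAt (I.S.mem_S x s hR)).hasFDerivAt
  have d1 := hA.comp (0 : E2) hd.hasFDerivAt
  have d2 : HasFDerivAt (fun u' : E2 => I.S.A z (0, u'))
      (fderiv ℝ (I.S.A z) (0, 0) ∘L (ContinuousLinearMap.inr ℝ ℝ E2)) 0 := by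
    have e1 : HasFDerivAt (I.S.A z) (fderiv ℝ (I.S.A z) (0, 0)) (0, (0 : E2)) :=
      (I.S.A_jc.differentiableAt (I.S.mem_S z 0 I.S.zero_mem)).hasFDerivAt
    have e2 : HasFDerivAt (fun u' : E2 => ((0, u') : ℝ × E2)) (ContinuousLinearMap.inr ℝ ℝ E2) 0 :=
      (ContinuousLinearMap.inr ℝ ℝ E2).hasFDerivAt
    exact e1.comp (0 : E2) e2
  have d3 := d1.unique (d2.congr_of_eventuallyEq key)
  have d4 := DFunLike.congr_fun d3 w
  have d5 : fderiv ℝ (L.τ z x) 0 w = (fderiv ℝ (G (z, x)) 0 w).2 := by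
    rw [ktau.fderiv_eq]
    have e1 : HasFDerivAt (fun u' => (G (z, x) u').2)
        (ContinuousLinearMap.snd ℝ ℝ E2 ∘L fderiv ℝ (G (z, x)) 0) 0 :=
      (ContinuousLinearMap.snd ℝ ℝ E2).hasFDerivAt.comp (0 : E2) hd.hasFDerivAt
    rw [e1.fderiv]
    rfl
  refine ⟨(fderiv ℝ (G (z, x)) 0 w).1, ?_⟩
  rw [d5]
  change fderiv ℝ (I.S.A x) (s, u) (fderiv ℝ (G (z, x)) 0 w)
    = fderiv ℝ (I.S.A z) (0, 0) (0, w) at d4
  rw [Prod.mk.eta, d4]
  exact I.A_fderiv z 0 w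

/-! ### the projection along the geodesics -/

/-- `pr₂ ∘ (D(A x)(p))⁻¹` -/
def Cp (x : X) (p : ℝ × E2) : V →L[ℝ] E2 :=
  (ContinuousLinearMap.snd ℝ ℝ E2) ∘L (fderiv ℝ (I.S.A x) p).inverse

theorem A_bij (hinv : H459.InvThm) (x : X) (s : ℝ) {u : E2} (hu : u ∈ ball (0 : E2) I.S.R) :
    Function.Bijective (fderiv ℝ (I.S.A x) (s, u)) := I.S.A_der' hinv x s hu

theorem Cp_apply (hinv : H459.InvThm) (x : X) (s : ℝ) {u : E2} (hu : u ∈ ball (0 : E2) I.S.R)
    (c : ℝ) (w : E2) : Cp I x (s, u) (fderiv ℝ (I.S.A x) (s, u) (c, w)) = w := by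
  rw [Cp, ContinuousLinearMap.comp_apply, inverse_apply (A_bij I hinv x s hu)]
  rfl

theorem Cp_vel (hinv : H459.InvThm) (x : X) (s : ℝ) {u : E2} (hu : u ∈ ball (0 : E2) I.S.R) :
    Cp I x (s, u) (I.vel (L.em x) (I.S.A x (s, u))) = 0 := by
  rw [← fderiv_A_one I hinv x s hu, Cp_apply I hinv x s hu]

theorem Cp_E (hinv : H459.InvThm) {x z : X} {s : ℝ} {u : E2} (hu : u ∈ ball (0 : E2) 3)
    (h : IsFr I x s u z) (w : E2) :
    Cp I x (s, u) (I.E z (pk 0 (I.r₀ • w))) = fderiv ℝ (L.τ z x) 0 w := by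
  obtain ⟨c, hc⟩ := fderiv_tau I hinv hu h w
  rw [← hc, Cp_apply I hinv x s (mem_R3 I hu)]

theorem Cp_E0 (hinv : H459.InvThm) {x z : X} {s : ℝ} {u : E2} (hu : u ∈ ball (0 : E2) 3)
    (h : IsFr I x s u z) : Cp I x (s, u) (I.E z e0) = 0 := by
  rw [← I.vel_eq hinv, h.em, h.ft, Cp_vel I hinv x s (mem_R3 I hu)]

theorem Cp_jc (hinv : H459.InvThm) :
    JC (Cp I) (univ ×ˢ (univ ×ˢ ball (0 : E2) I.S.R)) := by
  have h1 := JC_inverse I.S.A_jc.fderiv fun p hp =>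
    isInvertible_of_bijective (A_bij I hinv p.1 p.2.1 hp.2.2)
  exact h1.clm (ContinuousLinearMap.compL ℝ V (ℝ × E2) E2 (ContinuousLinearMap.snd ℝ ℝ E2))

/-- the derivative of the transition map is injective -/
theorem fderiv_tau_inj (hinv : H459.InvThm) {x z : X} {s : ℝ} {u : E2}
    (hu : u ∈ ball (0 : E2) 3) (h : IsFr I x s u z) :
    Function.Injective (fderiv ℝ (L.τ z x) 0) := by
  rw [injective_iff_map_eq_zero]
  intro w hw
  obtain ⟨c, hc⟩ := fderiv_tau I hinv hu h w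
  rw [hw] at hc
  have h1 : ((c, 0) : ℝ × E2) = c • (1, 0) := by ext1 <;> simp
  rw [h1, map_smul, fderiv_A_one I hinv x s (mem_R3 I hu), ← h.em, ← h.ft, I.vel_eq hinv,
    ← map_smul] at hc
  have h2 := (I.E_bij z).1 hc
  have h3 : c • e0 = pk c 0 := (H76.pk_zero_right c).symm
  rw [h3, H76.pk_inj] at h2
  exact (smul_eq_zero.1 h2.2.symm).resolve_left I.r₀_pos.ne'

end Vale.Agent.P207.N4.H266
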