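import Vale.Agent.P207.N4.Dim
import Vale.Agent.P207.N3.H862.JC2
import Vale.Agent.P207.N4.H266.TauB

/-!
# P207, line N3, package P1g: the inverse metric of the horospheres at all levels
-/

open Set Filter Topology Metric MeasureTheory
open scoped ContDiff

noncomputable section

namespace Vale.Agent.P207.N4.Ten

open Vale.Agent.P207.N3 Vale.Agent.P207.N3.Ten

variable [Dim]

/-! ### conjugation by a linear map -/

section Conj

/-- the adjoint as a linear map -/
def adjL : (E2 →L[ℝ] E2) →L[ℝ] (E2 →L[ℝ] E2) :=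
  LinearMap.toContinuousLinearMap
    { toFun := fun A => ContinuousLinearMap.adjoint A
      map_add' := fun A C => map_add _ A C
      map_smul' := fun c A => by
        rw [map_smulₛₗ]
        simp }

theorem adjL_apply (A : E2 →L[ℝ] E2) : adjL A = ContinuousLinearMap.adjoint A := rfl

/-- `A M Aᵀ` -/
def cj (A M : E2 →L[ℝ] E2) : E2 →L[ℝ] E2 := A ∘L M ∘L ContinuousLinearMap.adjoint A

theorem cj_comp (A C M : E2 →L[ℝ] E2) : cj (A ∘L C) M = cj A (cj C M) := by
  simp only [cj, ContinuousLinearMap.adjoint_comp, ContinuousLinearMap.comp_assoc]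

theorem cj_id (M : E2 →L[ℝ] E2) : cj (ContinuousLinearMap.id ℝ E2) M = M := by
  have h : ContinuousLinearMap.adjoint (ContinuousLinearMap.id ℝ E2)
      = ContinuousLinearMap.id ℝ E2 := ContinuousLinearMap.adjoint_id
  rw [cj, h]
  rfl

/-- `M ↦ A M Aᵀ` as a linear map -/
def cjL (A : E2 →L[ℝ] E2) : (E2 →L[ℝ] E2) →L[ℝ] (E2 →L[ℝ] E2) :=
  (ContinuousLinearMap.compL ℝ E2 E2 E2 A) ∘L
    ((ContinuousLinearMap.compL ℝ E2 E2 E2).flip (ContinuousLinearMap.adjoint A))

theorem cjL_apply (A M : E2 →L[ℝ] E2) : cjL A M = cj A M := rfl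

theorem cj_add (A M M' : E2 →L[ℝ] E2) : cj A (M + M') = cj A M + cj A M' := by
  rw [← cjL_apply, map_add]
  rfl

theorem cj_sub (A M M' : E2 →L[ℝ] E2) : cj A (M - M') = cj A M - cj A M' := by
  rw [← cjL_apply, map_sub]
  rfl

theorem cj_neg (A M : E2 →L[ℝ] E2) : cj A (-M) = -cj A M := by
  rw [← cjL_apply, map_neg]
  rfl

theorem cj_integral (A : E2 →L[ℝ] E2) {f : ℝ → E2 →L[ℝ] E2} {a b : ℝ}
    (hf : IntervalIntegrable f volume a b) :
    cj A (∫ t in a..b, f t) = ∫ t in a..b, cj A (f t) := by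
  rw [← cjL_apply, ← (cjL A).intervalIntegral_comp_comm hf]
  rfl

theorem adjoint_iso (a : O2) :
    ContinuousLinearMap.adjoint ((a.toContinuousLinearEquiv : E2 →L[ℝ] E2))
      = (a.symm.toContinuousLinearEquiv : E2 →L[ℝ] E2) := a.adjoint_eq_symm

theorem cj_rot (A M M' : E2 →L[ℝ] E2) (a : O2) (h : ∀ v, M' v = a.symm (M (a v))) :
    cj (A ∘L (a.toContinuousLinearEquiv : E2 →L[ℝ] E2)) M' = cj A M := by
  rw [cj_comp]
  congr 1
  ext1 v
  show a (M' (ContinuousLinearMap.adjoint (a.toContinuousLinearEquiv : E2 →L[ℝ] E2) v)) = M v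
  rw [adjoint_iso, h]
  show a (a.symm (M (a (a.symm v)))) = M v
  rw [a.apply_symm_apply, a.apply_symm_apply]

theorem JC.cj {Z : Type} [TopologicalSpace Z] {E : Type} [NormedAddCommGroup E] [NormedSpace ℝ E]
    {A M : Z → E → E2 →L[ℝ] E2} {S : Set (Z × E)} (hA : JC A S) (hM : JC M S) :
    JC (fun z u => Ten.cj (A z u) (M z u)) S :=
  hA.clm_comp (hM.clm_comp (hA.clm adjL))

end Conj

/-- locality in the parameter -/
theorem JC.of_subtype {Z : Type} [TopologicalSpace Z] {E F : Type} [NormedAddCommGroup E]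
    [NormedSpace ℝ E] [NormedAddCommGroup F] [NormedSpace ℝ F] {V : Set Z} {f : Z → E → F}
    {T : Set (Z × E)} (hV : IsOpen V) (hT : IsOpen T) (hTV : ∀ p ∈ T, p.1 ∈ V)
    (h : JC (fun (z : V) u => f z.1 u) {q : V × E | (q.1.1, q.2) ∈ T}) : JC f T := by
  refine ⟨hT, fun z u hu => ?_, fun k p hp => ?_⟩
  · exact h.smooth ⟨z, hTV _ hu⟩ u hu
  · have h1 : IsOpenEmbedding (fun q : V × E => ((q.1.1, q.2) : Z × E)) :=
      hV.isOpenEmbedding_subtypeVal.prodMap IsOpenEmbedding.id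
    have h2 := (h.cont k).continuousAt (x := ((⟨p.1, hTV p hp⟩ : V), p.2))
      (h.isOpen.mem_nhds hp)
    have h3 : ContinuousAt ((fun p : Z × E => iteratedFDeriv ℝ k (f p.1) p.2) ∘
        (fun q : V × E => ((q.1.1, q.2) : Z × E))) ((⟨p.1, hTV p hp⟩ : V), p.2) := h2
    have h4 := h1.continuousAt_iff.1 h3
    exact h4.continuousWithinAt

variable {Γ X B : Type} [Group Γ] [MetricSpace X] [ProperSpace X] [MulAction Γ X]
  [IsIsometricSMul Γ X] [TopologicalSpace B] [CompactSpace B] [T2Space B] [MulAction Γ B]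
  [ContinuousConstSMul Γ B] {L : Leaf Γ X B} {x y z : X} {u w : E2}

/-! ### the frame over a point of the chart, on the horosphere of the centre -/

variable (L) in
/-- `z` is a frame on the leaf and on the level of `x`, over the point `e x u`. -/
structure IsPt (x : X) (u : E2) (z : X) : Prop where
  em : L.em z = L.em x
  ep : L.ep z = L.e x u
  lv : L.lv z = L.lv x

theorem exists_pt (x : X) (hu : u ∈ closedBall (0 : E2) 3) : ∃ z, IsPt L x u z := by
  obtain ⟨z, h1, h2, h3⟩ := L.exists_frame (L.em x) (L.e x u) (L.e_ne x u hu).symm (L.lv x)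
  exact ⟨z, h1, h2, h3⟩

variable (L) in
open Classical in
/-- a choice of this frame -/
def pt (x : X) (u : E2) : X :=
  if hu : u ∈ closedBall (0 : E2) 3 then (exists_pt (L := L) x hu).choose else x

theorem pt_spec (x : X) (hu : u ∈ closedBall (0 : E2) 3) : IsPt L x u (pt L x u) := by
  unfold pt
  rw [dif_pos hu]
  exact (exists_pt x hu).choose_spec

theorem IsPt.rot_eq {z' : X} (h : IsPt L x u z) (h' : IsPt L x u z') : ∃ a, z' = L.rot a z :=
  L.frame_unique z z' (h.em.trans h'.em.symm) (h.ep.trans h'.ep.symm) (h.lv.trans h'.lv.symm)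

theorem IsPt.dm (h : IsPt L x u z) (hu : u ∈ ball (0 : E2) 3) : (0 : E2) ∈ L.dm z x :=
  dm_zero' hu h.ep.symm

theorem IsPt.dm_φ (h : IsPt L x u z) (hu : u ∈ ball (0 : E2) 3) (s : ℝ) :
    (0 : E2) ∈ L.dm (L.φ s z) x :=
  dm_zero' hu (by rw [ep_φ, h.ep])

/-- The tensor at the frame `φ s z` over the point, seen in the chart `e x`, does not depend on
the choice of the frame. -/
theorem cj_indep {M : X → E2 →L[ℝ] E2} (hM : ∀ a x v, M (L.rot a x) v = a.symm (M x (a v)))
    {z' : X} (h : IsPt L x u z) (h' : IsPt L x u z') (hu : u ∈ ball (0 : E2) 3) (s : ℝ) :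
    cj (fderiv ℝ (L.τ (L.φ s z') x) 0) (M (L.φ s z'))
      = cj (fderiv ℝ (L.τ (L.φ s z) x) 0) (M (L.φ s z)) := by
  obtain ⟨a, rfl⟩ := h.rot_eq h'
  rw [← L.rot_φ, fderiv_tau_rot_left (by rw [L.em_φ, h.em]) a (h.dm_φ hu s)]
  exact cj_rot _ _ _ a fun v => hM a _ v

/-! ### the inverse metric of the horospheres -/

variable (L) in
/-- the inverse metric of the horosphere of the level `lv y + s`, in the chart `e y` -/
def hor (q : X × ℝ) (u : E2) : E2 →L[ℝ] E2 :=
  cj (fderiv ℝ (L.τ (L.φ q.2 (pt L q.1 u)) q.1) 0) (ContinuousLinearMap.id ℝ E2)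

theorem hor_eq (h : IsPt L y u z) (hu : u ∈ ball (0 : E2) 3) (s : ℝ) :
    hor L (y, s) u = cj (fderiv ℝ (L.τ (L.φ s z) y) 0) (ContinuousLinearMap.id ℝ E2) := by
  have := cj_indep (M := fun _ => ContinuousLinearMap.id ℝ E2) (fun a x v => by simp) h
    (pt_spec y (ball_sub hu)) hu s
  exact this

/-- change of the centre of the chart -/
theorem hor_trans {q : X} (hq : L.em q = L.em y) (hu : u ∈ L.dm y q) (M : Metr L) {s : ℝ}
    (hs : L.lv q = L.lv y + s) :
    hor L (y, s) u = cj (fderiv ℝ (L.τ q y) (L.τ y q u)) (M.I q (L.τ y q u)) := by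
  have h := pt_spec (L := L) y (ball_sub hu.1)
  set ζ := pt L y u with hζ
  have hw := tau_mem hu
  have hew := e_tau hu
  have h1 : L.e q (L.τ y q u) = L.ep (L.φ s ζ) := by rw [hew, ep_φ, h.ep]
  rw [hor_eq h hu.1 s, fderiv_tau_zero (y := q) (w := L.τ y q u) (by rw [L.em_φ, h.em, hq]) hq hw
    h1 (tau_symm_mem hu), cj_comp]
  congr 1
  rw [M.I_eq q (L.φ s ζ) (by rw [L.em_φ, h.em, hq]) (by rw [L.lv_φ, h.lv, hs]) _ hw h1]
  rfl

/-! ### joint continuity -/

variable (L) in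
/-- the frame of the leaf and of the level of `y`, positively asymptotic to `z₀` -/
def sec (z₀ y : X) : X :=
  L.φ (L.lv y - L.lv (L.hol (L.em y) z₀)) (L.hol (L.em y) z₀)

theorem em_sec {z₀ : X} (h : L.em y ≠ L.ep z₀) : L.em (sec L z₀ y) = L.em y := by
  rw [sec, L.em_φ, L.hol_em _ _ h]

theorem ep_sec {z₀ : X} (h : L.em y ≠ L.ep z₀) : L.ep (sec L z₀ y) = L.ep z₀ := by
  rw [sec, ep_φ, L.hol_ep _ _ h]

theorem lv_sec (z₀ y : X) : L.lv (sec L z₀ y) = L.lv y := by
  rw [sec, L.lv_φ]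
  ring

variable (L) in
theorem isOpen_ne_em (z₀ : X) : IsOpen {y | L.em y ≠ L.ep z₀} :=
  isOpen_ne_fun L.em_cont continuous_const

variable (L) in
theorem sec_cont (z₀ : X) : ContinuousOn (sec L z₀) {y | L.em y ≠ L.ep z₀} := by
  have h1 : ContinuousOn (fun y => L.hol (L.em y) z₀) {y | L.em y ≠ L.ep z₀} :=
    L.hol_cont.comp (f := fun y => ((L.em y, z₀) : B × X))
      (L.em_cont.prodMk continuous_const).continuousOn fun y hy => hy
  have h2 : ContinuousOn (fun y => L.lv y - L.lv (L.hol (L.em y) z₀))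
      {y | L.em y ≠ L.ep z₀} := L.lv_cont.continuousOn.sub (L.lv_cont.comp_continuousOn h1)
  exact L.φ_cont.comp_continuousOn (h2.prodMk h1)

/-- **the inverse metric of the horospheres is jointly smooth** -/
theorem JC_hor (M : Metr L) : JC (hor L) (univ ×ˢ ball (0 : E2) 3) := by
  refine JC.of_local (isOpen_univ.prod isOpen_ball) ?_
  rintro ⟨⟨y₀, s₀⟩, u₀⟩ ⟨-, hu₀⟩
  simp only at hu₀
  obtain ⟨z₀, hz₀⟩ := exists_pt (L := L) y₀ (ball_sub hu₀)
  set V : Set (X × ℝ) := {q | L.em q.1 ≠ L.ep z₀} with hVdef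
  have hV : IsOpen V := (isOpen_ne_em L z₀).preimage continuous_fst
  -- the frame `φ s (sec z₀ y)`
  set c : X × ℝ → X := fun q => L.φ q.2 (sec L z₀ q.1) with hc
  have hcV : ContinuousOn c V :=
    L.φ_cont.comp_continuousOn (continuousOn_snd.prodMk
      ((sec_cont L z₀).comp continuousOn_fst fun q hq => hq))
  have hem : ∀ q ∈ V, L.em (c q) = L.em q.1 := fun q hq => by rw [hc]; simp only [L.em_φ, em_sec hq]
  have hlv : ∀ q : X × ℝ, L.lv (c q) = L.lv q.1 + q.2 := fun q => by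
    rw [hc]
    simp only [L.lv_φ, lv_sec]
  have hep : ∀ q ∈ V, L.ep (c q) = L.ep z₀ := fun q hq => by
    rw [hc]
    simp only [ep_φ, ep_sec hq]
  set T : Set ((X × ℝ) × E2) := {p | p.1 ∈ V ∧ p.2 ∈ L.dm p.1.1 (c p.1)} with hTdef
  have hT : IsOpen T := by
    have h1 : ContinuousOn (fun p : (X × ℝ) × E2 => (((p.1.1, c p.1), p.2) : (X × X) × E2))
        (Prod.fst ⁻¹' V) := by
      refine ContinuousOn.prodMk (ContinuousOn.prodMk (by fun_prop) ?_) (by fun_prop)
      exact hcV.comp continuousOn_fst fun p hp => hp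
    exact h1.isOpen_inter_preimage (hV.preimage continuous_fst) (isOpen_dm2 L)
  refine ⟨T, ⟨?_, ?_⟩, ?_⟩
  · rw [hVdef, mem_ofPred_eq]
    simp only
    rw [hz₀.ep]
    exact (L.e_ne y₀ u₀ (ball_sub hu₀)).symm
  · have hv : ((y₀, s₀) : X × ℝ) ∈ V := by
      rw [hVdef, mem_ofPred_eq]
      simp only
      rw [hz₀.ep]
      exact (L.e_ne y₀ u₀ (ball_sub hu₀)).symm
    refine mem_dm hu₀ mem_ball0 ?_
    rw [L.e_zero, hep _ hv, hz₀.ep]
  · refine JC.of_subtype hV hT (fun p hp => hp.1) ?_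
    -- the pull-backs
    have hcc : Continuous fun q : V => c q.1 := continuousOn_iff_continuous_domRestrict.1 hcV
    let c₁ : V → Pr L := fun q => ⟨(q.1.1, c q.1), (hem q.1 q.2).symm⟩
    let c₂ : V → Pr L := fun q => ⟨(c q.1, q.1.1), hem q.1 q.2⟩
    have hc₁ : Continuous c₁ :=
      Continuous.subtype_mk ((continuous_fst.comp continuous_subtype_val).prodMk hcc) _
    have hc₂ : Continuous c₂ :=
      Continuous.subtype_mk (hcc.prodMk (continuous_fst.comp continuous_subtype_val)) _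
    have hS : {q : V × E2 | (q.1.1, q.2) ∈ T} = {q : V × E2 | (c₁ q.1, q.2) ∈ DM L} := by
      ext q
      constructor
      · intro h
        exact h.2
      · intro h
        exact ⟨q.1.2, h⟩
    have j1 : JC (fun (q : V) u => L.τ q.1.1 (c q.1) u) {q : V × E2 | (q.1.1, q.2) ∈ T} := by
      rw [hS]
      exact (JC_tau L).pullback hc₁
    have j2 : JC (fun (q : V) v => fderiv ℝ (L.τ (c q.1) q.1.1) v)
        {q : V × E2 | (c₂ q.1, q.2) ∈ DM L} := (JC_tau L).fderiv.pullback hc₂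
    have j3 : JC (fun (q : V) v => M.I (c q.1) v) {q : V × E2 | (c q.1, q.2) ∈
        (univ : Set X) ×ˢ ball (0 : E2) 3} := by
      have j0 : JC M.I (univ ×ˢ ball (0 : E2) 3) :=
        ⟨isOpen_univ.prod isOpen_ball, fun z => (M.I_smooth z).mono fun v hv => hv.2, M.I_cont⟩
      exact j0.pullback hcc
    have j4 := j2.comp' j1 fun q hq => tau_symm_mem hq.2
    have j5 := j3.comp' j1 fun q hq => ⟨mem_univ _, tau_mem hq.2⟩
    refine (JC.cj j4 j5).congr fun q hq => ?_
    exact hor_trans (q := c q.1.1) (hem q.1.1 q.1.2) hq.2 M (hlv q.1.1)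

end Vale.Agent.P207.N4.Ten
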